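import Vale.Agent.P063.Graph

namespace Vale.Agent.Results.P063.Full

open Vale.Agent.P063

/-- The Friedgut–Kalai threshold-width conjecture for graphs (`r = 2`) and hypergraphs. -/
theorem result : ∀ r : ℕ, 2 ≤ r → ∀ ε : ℝ, 0 < ε → ε < 1 / 2 → ∃ C : ℝ, ∀ n : ℕ, r ≤ n →
    ∀ P : Finset (Hyp n r), IsProperty P → IsIncreasing P → P ≠ ∅ → P ≠ Finset.univ →
      width ε P ≤ C * Real.log n ^ (-(r : ℝ) / ((r : ℝ) - 1)) :=
  fun r hr ε h0 h1 => ⟨8192 * r / ε ^ 2, fun _ hn _ hP hI hne _ => main hr h0 h1 hn hP hI hne⟩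

end Vale.Agent.Results.P063.Full
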